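import Vale.Agent.P078.Main
import Vale.Agent.P078.Lit
import Vale.Agent.P078.Proj
import Vale.Agent.P078.Spec
import Vale.Agent.P078.Ref
import Vale.Agent.P078.Fine
import Vale.Agent.P078.Cyc
import Vale.Agent.P078.QQ
import Vale.Agent.P078.Blk
import Vale.Agent.P078.Bnd
import Vale.Agent.P078.Col
import Vale.Agent.P078.Sgn
import Vale.Agent.P078.Pav
import Vale.Agent.P078.Osc
import Vale.Agent.P078.Upp
import Vale.Agent.P078.Low

/-!
P078: for every complex Hilbert space `H ≠ 0` (of any dimension) and every maximal abelian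
self-adjoint subalgebra `A` of the algebra of all bounded operators on `H` which has no minimal
projections, the so-paving number of `A` equals `⌈1/ε⌉` for every `0 < ε < 1`.
-/

namespace Vale.Agent.Results.P078.DiffuseExact

open Vale.Agent.P078

theorem result {H : Type*} [NormedAddCommGroup H] [InnerProductSpace ℂ H] [CompleteSpace H]
    [Nontrivial H] (A : StarSubalgebra ℂ (H →L[ℂ] H)) (hA : IsMasa (allOps H) A)
    (hD : NoMinimal A) :
    ∀ ε : ℝ, 0 < ε → ε < 1 → soNumber (allOps H) A ε = ((⌈1 / ε⌉₊ : ℕ) : ℕ∞) := by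
  have hMs : Ms A := Lit.lit_proof A hA
  have hP : PROJ A := Proj.proj_proof A hMs
  have hSp : SPEC A := Spec.spec_proof A hMs hP
  have hR : REF A := Ref.ref_proof A hMs
  have hF : FINE A := Fine.fine_proof A hMs hP hD
  have hC : CYC A := Cyc.cyc_proof A hP
  have hQ : QQ A := QQm.qq_proof A hSp hF hR hC
  have hBk : BLK A := BLKm.blk_proof A hQ
  have hBd : BND A := BNDm.bnd_proof A
  have hPav : PAV A := PAVm.pav_proof A hBk hBd COLm.col_proof
  have hOsc : OSC A := OSCm.osc_proof A hBk hBd SGNm.sgn_proof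
  have hU : UPP A := UPPm.upp_proof A hMs hPav hOsc
  have hL : LOW A := LOWm.low_proof A hMs hF SGNm.sgn_proof
  exact MAINm.main_proof A hU hL

end Vale.Agent.Results.P078.DiffuseExact
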